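import Vale.Agent.P154.KS.Final3

/-!
# P154: three-state Potts channel, every admissible `lam`: reconstruction above Kesten-Stigum, nonreconstruction up to and at Kesten-Stigum for `lam ≥ -11/60` or `d ≥ 30`, on both tree models

For `q = 3`, every admissible `-1/2 ≤ lam ≤ 1` and
* the rooted `d`-ary tree, every integer `d ≥ 2`;
* the Galton-Watson tree with independent Poisson(`d`) offspring numbers, every real `d > 0`:
if `d * lam ^ 2 > 1` then the quantity `a_n` of the problem file is bounded below by a positive constant, and if `d * lam ^ 2 ≤ 1` and (`lam ≥ -11/60` or `d ≥ 30`) then `a_n` tends to zero.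
For the second model the statement also records that the weights `probT d n` of the trees cut at depth `n` are a probability
distribution and that the series defining `a_n` converges.
-/

namespace Vale.Agent.Results.P154.BothSignsThreshold

open Vale.Agent.P154 Filter Topology

theorem lam_range (d lam : ℝ) (h : -11 / 60 ≤ lam ∨ 30 ≤ d) (h2 : d * lam ^ 2 ≤ 1) :
    -11 / 60 ≤ lam := by
  rcases h with h | h
  · exact h
  · have h3 : 30 * lam ^ 2 ≤ 1 := by nlinarith [sq_nonneg lam]
    nlinarith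

theorem result :
    (∀ (d : ℕ) (lam : ℝ), 2 ≤ d → -1 / 2 ≤ lam → lam ≤ 1 →
      (1 < (d : ℝ) * lam ^ 2 → ∃ c : ℝ, 0 < c ∧ ∀ n, c ≤ aTV 3 d lam n) ∧
      ((-11 / 60 ≤ lam ∨ 30 ≤ d) → (d : ℝ) * lam ^ 2 ≤ 1 →
        Tendsto (fun n => aTV 3 d lam n) atTop (𝓝 0))) ∧
    (∀ (d lam : ℝ), 0 < d → -1 / 2 ≤ lam → lam ≤ 1 →
      (∀ n, (∀ T, 0 ≤ probT d n T) ∧ HasSum (probT d n) 1) ∧
      (∀ n, Summable (fun T : GT n => probT d n T * aT 3 lam n T)) ∧
      (1 < d * lam ^ 2 → ∃ c : ℝ, 0 < c ∧ ∀ n, c ≤ aGW 3 d lam n) ∧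
      ((-11 / 60 ≤ lam ∨ 30 ≤ d) → d * lam ^ 2 ≤ 1 →
        Tendsto (fun n => aGW 3 d lam n) atTop (𝓝 0))) := by
  refine ⟨fun d lam hd h0 h1 => ⟨fun h2 => reg_rec_all d lam hd h0 h1 h2, fun h h2 => ?_⟩,
    fun d lam hd h0 h1 => ?_⟩
  · have h' : -11 / 60 ≤ lam ∨ (30 : ℝ) ≤ d := by
      rcases h with h | h
      · exact Or.inl h
      · exact Or.inr (by exact_mod_cast h)
    exact reg_non_all d lam hd (lam_range d lam h' h2) h2
  · have hp := potts3_nonneg lam h0 h1
    refine ⟨fun n => ⟨probT_nonneg d hd.le n, probT_hasSum d hd.le n⟩, fun n => ?_,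
      fun h2 => gw_rec_all d lam hd h0 h1 h2, fun h h2 => ?_⟩
    · exact summable_probT_mul d hd.le n _ (aT_nonneg' 3 lam hp n)
        (aT_le_one 3 (by norm_num) lam hp n)
    · exact gw_non_all d lam hd (lam_range d lam h h2) h1 h2

end Vale.Agent.Results.P154.BothSignsThreshold
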