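import Vale.Agent.P154.KS.Final3
import Vale.Agent.P154.GW.Coup2
import Vale.Agent.P154.XT2.KeyXT2
import Vale.Agent.P154.T4.KeyC

/-!
# P154: the reconstruction threshold in `iff` form

Four colours, every `0 ≤ lam ≤ 1`, on the rooted `d`-ary tree (every integer `d ≥ 2`) and on the Galton-Watson tree with Poisson(`d`) offspring
(every real `d > 0`): the quantity `a_n` of the problem file stays above a positive constant if and only if `d * lam ^ 2 > 1`, and it tends to zero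
if and only if `d * lam ^ 2 ≤ 1`.

Three colours, every `-1/2 ≤ lam ≤ 1`, same two models and the same `d`: `a_n` stays above a positive constant if `d * lam ^ 2 > 1`; if `lam ≥ -11/60` or
`d ≥ 30` or `d * |lam| ≤ 1` the same two equivalences hold.

For the Galton-Watson model the statement also records that the weights `probT d n` of the trees cut at depth `n` are a probability distribution and that
the series defining `a_n` converges.
-/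

namespace Vale.Agent.Results.P154.Q4Iff

open Vale.Agent.P154 Filter Topology

theorem lam_range (d lam : ℝ) (h : -11 / 60 ≤ lam ∨ 30 ≤ d) (h2 : d * lam ^ 2 ≤ 1) :
    -11 / 60 ≤ lam := by
  rcases h with h | h
  · exact h
  · have h3 : 30 * lam ^ 2 ≤ 1 := by nlinarith [sq_nonneg lam]
    nlinarith

/-- a sequence cannot stay above a positive constant and tend to zero -/
theorem not_both (a : ℕ → ℝ) (h1 : ∃ c : ℝ, 0 < c ∧ ∀ n, c ≤ a n) (h2 : Tendsto a atTop (𝓝 0)) :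
    False := by
  obtain ⟨c, hc, h⟩ := h1
  have := ge_of_tendsto' h2 h
  linarith

theorem pack (a : ℕ → ℝ) (r : ℝ) (h1 : 1 < r → ∃ c : ℝ, 0 < c ∧ ∀ n, c ≤ a n)
    (h2 : r ≤ 1 → Tendsto a atTop (𝓝 0)) :
    ((∃ c : ℝ, 0 < c ∧ ∀ n, c ≤ a n) ↔ 1 < r) ∧ (Tendsto a atTop (𝓝 0) ↔ r ≤ 1) := by
  refine ⟨⟨fun h => ?_, h1⟩, ⟨fun h => ?_, h2⟩⟩
  · by_contra hr
    exact not_both a h (h2 (not_lt.1 hr))
  · by_contra hr
    exact not_both a (h1 (not_le.1 hr)) h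

/-- the two pointwise inequalities on `T × T` -/
theorem ptTT : PtG (ps5 (87 / 40) (3 / 5)) (1 / 50) XT2.pA XT2.pA T4.cT T4.cT :=
  ⟨XT2.keyX, T4.keyC, XT2.pA_nonneg, T4.cT_nonneg, XT2.pA_nonneg, T4.cT_nonneg⟩

theorem result :
    ((∀ (d : ℕ) (lam : ℝ), 2 ≤ d → 0 ≤ lam → lam ≤ 1 →
      ((∃ c : ℝ, 0 < c ∧ ∀ n, c ≤ aTV 4 d lam n) ↔ 1 < (d : ℝ) * lam ^ 2) ∧
      (Tendsto (fun n => aTV 4 d lam n) atTop (𝓝 0) ↔ (d : ℝ) * lam ^ 2 ≤ 1)) ∧
    (∀ (d lam : ℝ), 0 < d → 0 ≤ lam → lam ≤ 1 →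
      (∀ n, (∀ T, 0 ≤ probT d n T) ∧ HasSum (probT d n) 1) ∧
      (∀ n, Summable (fun T : GT n => probT d n T * aT 4 lam n T)) ∧
      ((∃ c : ℝ, 0 < c ∧ ∀ n, c ≤ aGW 4 d lam n) ↔ 1 < d * lam ^ 2) ∧
      (Tendsto (fun n => aGW 4 d lam n) atTop (𝓝 0) ↔ d * lam ^ 2 ≤ 1))) ∧
    ((∀ (d : ℕ) (lam : ℝ), 2 ≤ d → -1 / 2 ≤ lam → lam ≤ 1 →
      (1 < (d : ℝ) * lam ^ 2 → ∃ c : ℝ, 0 < c ∧ ∀ n, c ≤ aTV 3 d lam n) ∧
      ((-11 / 60 ≤ lam ∨ 30 ≤ d ∨ (d : ℝ) * |lam| ≤ 1) →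
        ((∃ c : ℝ, 0 < c ∧ ∀ n, c ≤ aTV 3 d lam n) ↔ 1 < (d : ℝ) * lam ^ 2) ∧
        (Tendsto (fun n => aTV 3 d lam n) atTop (𝓝 0) ↔ (d : ℝ) * lam ^ 2 ≤ 1))) ∧
    (∀ (d lam : ℝ), 0 < d → -1 / 2 ≤ lam → lam ≤ 1 →
      (∀ n, (∀ T, 0 ≤ probT d n T) ∧ HasSum (probT d n) 1) ∧
      (∀ n, Summable (fun T : GT n => probT d n T * aT 3 lam n T)) ∧
      (1 < d * lam ^ 2 → ∃ c : ℝ, 0 < c ∧ ∀ n, c ≤ aGW 3 d lam n) ∧
      ((-11 / 60 ≤ lam ∨ 30 ≤ d ∨ d * |lam| ≤ 1) →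
        ((∃ c : ℝ, 0 < c ∧ ∀ n, c ≤ aGW 3 d lam n) ↔ 1 < d * lam ^ 2) ∧
        (Tendsto (fun n => aGW 3 d lam n) atTop (𝓝 0) ↔ d * lam ^ 2 ≤ 1)))) := by
  obtain ⟨F1, F2⟩ := four_thresholdG ptTT (cls5 _ _ (by norm_num) (by norm_num) (by norm_num))
    (by norm_num) (by norm_num)
  refine ⟨⟨fun d lam hd h0 h1 => ?_, fun d lam hd h0 h1 => ?_⟩,
    ⟨fun d lam hd h0 h1 => ⟨fun h2 => reg_rec_all d lam hd h0 h1 h2, fun h => ?_⟩,
      fun d lam hd h0 h1 => ?_⟩⟩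
  · obtain ⟨g1, g2⟩ := F1 d lam hd h0 h1
    exact pack _ _ g1 g2
  · obtain ⟨g1, g2, g3, g4⟩ := F2 d lam hd h0 h1
    exact ⟨g1, g2, pack _ _ g3 g4⟩
  · refine pack _ _ (fun h2 => reg_rec_all d lam hd h0 h1 h2) (fun h2 => ?_)
    rcases h with h | h | h
    · exact reg_non_all d lam hd (lam_range d lam (Or.inl h) h2) h2
    · exact reg_non_all d lam hd (lam_range d lam (Or.inr (by exact_mod_cast h)) h2) h2
    · exact reg_coupling 3 (by norm_num) d hd lam (potts3_nonneg lam h0 h1) h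
  · have hp := potts3_nonneg lam h0 h1
    refine ⟨fun n => ⟨probT_nonneg d hd.le n, probT_hasSum d hd.le n⟩, fun n => ?_,
      fun h2 => gw_rec_all d lam hd h0 h1 h2, fun h => ?_⟩
    · exact summable_probT_mul d hd.le n _ (aT_nonneg' 3 lam hp n)
        (aT_le_one 3 (by norm_num) lam hp n)
    · refine pack _ _ (fun h2 => gw_rec_all d lam hd h0 h1 h2) (fun h2 => ?_)
      rcases h with h | h | h
      · exact gw_non_all d lam hd (lam_range d lam (Or.inl h) h2) h1 h2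
      · exact gw_non_all d lam hd (lam_range d lam (Or.inr h) h2) h1 h2
      · exact gw_coupling 3 (by norm_num) d lam hd.le hp (abs_le.2 ⟨by linarith, h1⟩) h

end Vale.Agent.Results.P154.Q4Iff
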